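import Vale.Agent.P278.Stmt
import Vale.Agent.P278.Final

open scoped Manifold ContDiff
open Vale.Agent.P278S

theorem Vale.Agent.Results.P278.Splitting.result {n : ℕ} {X : Type} [TopologicalSpace X]
    [T2Space X] [CompactSpace X] [ConnectedSpace X] [ChartedSpace (Cn n) X]
    [IsManifold 𝓘(ℂ, Cn n) ω X] (h : FormField (Cn n) X) (hK : IsKaehler h)
    {k : ℕ} (E : Fin k → SubField (Cn n) X) (hE : ∀ i, IsHolSubbundle (E i))
    (hsum : IsSplitting E) (hint : ∀ S : Set (Fin k), IsIntegrable (sumField E S))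
    {M : Type} [TopologicalSpace M] [T2Space M] [SecondCountableTopology M]
    [SimplyConnectedSpace M] [ChartedSpace (Cn n) M] [IsManifold 𝓘(ℂ, Cn n) ω M]
    (π : M → X) (hπ : IsHolCovering (V := Cn n) π) :
    ∃ d : Fin k → ℕ, CompatibleProduct π E fun i => Cn (d i) := by
  obtain ⟨d, Y, t, c, hY, Φ, hΦ⟩ := Vale.Agent.P278.splitting h
    ⟨hK.herm, hK.pos, hK.smooth, hK.closed⟩ E hE hsum hint π hπ.1 hπ.2
  exact ⟨d, Y, t, c, hY, Φ.toEquiv, ⟨Φ.contMDiff, Φ.symm.contMDiff⟩, hΦ⟩
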